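import Mathlib
import Vale.Agent.P032.Six.Gap

/-!
# P032: without unit arcs in `XX`, every point of `XX` has at most three colours
-/

open Set Filter Topology Metric

noncomputable section

namespace Vale.Agent.P032.Six

variable {k : ℕ}

/-- no relatively open piece of a unit circle centred in `XX` lies in `XX` -/
def NoArc (U : Fin k → Set ℂ) : Prop :=
  ∀ z ∈ XX U, ∀ p, dist p z = 1 → ¬ ∀ᶠ q in 𝓝[sphere z 1] p, q ∈ XX U

theorem Mx.na_sub {U : Fin k → Set ℂ} (h : Mx U) (hNA : NoArc U) {x y : ℂ} (hx : x ∈ XX U)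
    (hxy : dist y x = 1) : ¬ Pal U y ⊆ Pal U x := by
  intro hsub
  refine hNA x hx y hxy ?_
  filter_upwards [mem_nhdsWithin_of_mem_nhds (pal_nhd U y), self_mem_nhdsWithin] with q h1 h2
  exact h.mem_XX_of_circle h2 (h1.trans hsub)

/-- no line -/
theorem not_line {x y y' : ℂ} (h1 : dist y x = 1) (h2 : dist y' x = 1) :
    ¬ (y = x ∨ y + x = 2 * y') := by
  rintro (h | h)
  · rw [h, dist_self] at h1; norm_num at h1
  · have h3 : y - x = 2 * (y' - x) := by linear_combination h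
    rw [dist_eq_norm] at h1 h2
    rw [h3, norm_mul, h2] at h1
    norm_num at h1

theorem not_line' {x y y' : ℂ} (h1 : dist y x = 1) (h2 : dist y' x = 1) :
    ¬ (x = y ∨ x + y = 2 * y') := by
  rintro (h | h)
  · exact not_line h1 h2 (Or.inl h.symm)
  · exact not_line h1 h2 (Or.inr (by rw [add_comm]; exact h))

/-- rotation by sixty degrees -/
def om : ℂ := cis (Real.pi / 3)

theorem om_eq : om = 1 / 2 + (Real.sqrt 3 / 2 : ℝ) * Complex.I := by
  rw [om, cis, Complex.exp_mul_I, ← Complex.ofReal_cos, ← Complex.ofReal_sin,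
    Real.cos_pi_div_three, Real.sin_pi_div_three]
  push_cast; ring

theorem om_sq : om ^ 2 = om - 1 := by
  rw [om_eq]
  have h3 : ((Real.sqrt 3 / 2 : ℝ) : ℂ) ^ 2 = 3 / 4 := by
    rw [← Complex.ofReal_pow, div_pow, Real.sq_sqrt (by norm_num)]; norm_num
  have hI := Complex.I_sq
  linear_combination Complex.I ^ 2 * h3 + (3 / 4 : ℂ) * hI

theorem norm_om : ‖om‖ = 1 := norm_cis _

theorem norm_om_sub : ‖1 - om‖ = 1 := by
  have : 1 - om = - om ^ 2 := by rw [om_sq]; ring
  rw [this, norm_neg, norm_pow, norm_om, one_pow]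

/-- no colour fills a unit circle -/
theorem Mx.not_all {U : Fin k → Set ℂ} (h : Mx U) (x : ℂ) (f : Fin k) :
    ∃ y, dist y x = 1 ∧ f ∉ Pal U y := by
  by_contra hcon
  push Not at hcon
  have hp : dist (x + 1) x = 1 := by rw [dist_eq_norm]; simp
  have hv : dist (x + om) x = 1 := by rw [dist_eq_norm]; simp [norm_om]
  have hpv : dist (x + 1) (x + om) = 1 := by
    rw [dist_eq_norm]
    have : x + 1 - (x + om) = 1 - om := by ring
    rw [this, norm_om_sub]
  refine not_line hv hp (h.partner_line (u := x) (p := x + 1) (v := x + om) (t := f) hp ?_ hpv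
    (hcon _ hv))
  filter_upwards [self_mem_nhdsWithin] with q hq
  exact hcon q hq

/-- points with both colours are invariant under rotation by sixty degrees -/
theorem Mx.both_rot {U : Fin k → Set ℂ} (h : Mx U) {x y y' : ℂ} {e f : Fin k}
    (hcov : ∀ q, dist q x = 1 → e ∈ Pal U q ∨ f ∈ Pal U q)
    (hy : dist y x = 1) (hy' : dist y' x = 1) (hyy : dist y' y = 1)
    (he : e ∈ Pal U y) : f ∈ Pal U y' := by
  by_contra hf
  refine not_line hy hy' (h.partner_line (u := x) (p := y') (v := y) (t := e) hy' ?_ hyy he)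
  filter_upwards [mem_nhdsWithin_of_mem_nhds (pal_nhd U y'), self_mem_nhdsWithin] with q h1 h2
  rcases hcov q h2 with h3 | h3
  · exact h3
  · exact absurd (h1 h3) hf

/-- the palette is everything except `e` and `f` -/
def Miss (U : Fin 6 → Set ℂ) (x : ℂ) (e f : Fin 6) : Prop :=
  e ≠ f ∧ ∀ i, i ∈ Pal U x ↔ (i ≠ e ∧ i ≠ f)

variable {U : Fin 6 → Set ℂ}

theorem Mx.miss_cov (h : Mx U) (hNA : NoArc U) {x : ℂ} (hx : x ∈ XX U) {e f : Fin 6}
    (hm : Miss U x e f) (q : ℂ) (hq : dist q x = 1) : e ∈ Pal U q ∨ f ∈ Pal U q := by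
  by_contra hcon
  push Not at hcon
  refine h.na_sub hNA hx hq fun i hi => (hm.2 i).2 ⟨?_, ?_⟩
  · rintro rfl; exact hcon.1 hi
  · rintro rfl; exact hcon.2 hi

/-- at most four colours, and exactly two missing if four -/
theorem Mx.card_or (h : Mx U) (hNA : NoArc U) {x : ℂ} (hx : x ∈ XX U) :
    (Pal U x).ncard ≤ 3 ∨ ∃ e f, Miss U x e f := by
  classical
  by_contra hcon
  push Not at hcon
  obtain ⟨h1, h2⟩ := hcon
  set P : Finset (Fin 6) := Finset.univ.filter (fun i => i ∈ Pal U x) with hP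
  have hPm : ∀ i, i ∈ P ↔ i ∈ Pal U x := by intro i; simp [hP]
  have hPc : (P : Set (Fin 6)) = Pal U x := by ext i; simp [hPm i]
  rw [← hPc, Set.ncard_coe_finset] at h1
  have hc : Pᶜ.card ≤ 2 := by
    rw [Finset.card_compl]; simp; omega
  have hnot : ∀ f : Fin 6, ¬ (∀ i, i ∉ Pal U x → i = f) := by
    intro f hf
    obtain ⟨y, hy, hfy⟩ := h.not_all x f
    refine h.na_sub hNA hx hy fun i hi => ?_
    by_contra hix
    exact hfy (hf i hix ▸ hi)
  interval_cases hcc : Pᶜ.card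
  · rw [Finset.card_eq_zero] at hcc
    refine hnot 0 fun i hi => ?_
    have : i ∈ Pᶜ := by simpa [hPm i] using hi
    rw [hcc] at this; simp at this
  · rw [Finset.card_eq_one] at hcc
    obtain ⟨f, hf⟩ := hcc
    refine hnot f fun i hi => ?_
    have : i ∈ Pᶜ := by simpa [hPm i] using hi
    rw [hf] at this; simpa using this
  · rw [Finset.card_eq_two] at hcc
    obtain ⟨e, f, hef, hcc⟩ := hcc
    refine h2 e f ⟨hef, fun i => ?_⟩
    have h3 : i ∈ Pᶜ ↔ (i = e ∨ i = f) := by rw [hcc]; simp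
    rw [Finset.mem_compl, hPm i] at h3
    tauto

/-- six distinct colours are everything -/
theorem six_all {a b c d e f : Fin 6} (hab : a ≠ b) (hac : a ≠ c) (had : a ≠ d) (hae : a ≠ e)
    (haf : a ≠ f) (hbc : b ≠ c) (hbd : b ≠ d) (hbe : b ≠ e) (hbf : b ≠ f) (hcd : c ≠ d)
    (hce : c ≠ e) (hcf : c ≠ f) (hde : d ≠ e) (hdf : d ≠ f) (hef : e ≠ f) (i : Fin 6) :
    i = a ∨ i = b ∨ i = c ∨ i = d ∨ i = e ∨ i = f := by
  have h7 : ({a, b, c, d, e, f} : Finset (Fin 6)) = Finset.univ := by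
    rw [← Finset.card_eq_iff_eq_univ]
    rw [Finset.card_insert_of_notMem, Finset.card_insert_of_notMem,
      Finset.card_insert_of_notMem, Finset.card_insert_of_notMem,
      Finset.card_insert_of_notMem, Finset.card_singleton]
    · simp
    · simp [hef]
    · simp [hde, hdf]
    · simp [hcd, hce, hcf]
    · simp [hbc, hbd, hbe, hbf]
    · simp [hab, hac, had, hae, haf]
  have h8 : i ∈ ({a, b, c, d, e, f} : Finset (Fin 6)) := by rw [h7]; simp
  simpa using h8

theorem card_four {c d e f : Fin 6} {P : Set (Fin 6)} (hcd : c ≠ d)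
    (hce : c ≠ e) (hcf : c ≠ f) (hde : d ≠ e) (hdf : d ≠ f) (hef : e ≠ f) (hc : c ∈ P)
    (hd : d ∈ P) (he : e ∈ P) (hf : f ∈ P) : 4 ≤ P.ncard := by
  have h4 : (({c, d, e, f} : Finset (Fin 6)) : Set (Fin 6)) ⊆ P := by
    intro i hi
    simp only [Finset.coe_insert, Finset.coe_singleton, Set.mem_insert_iff,
      Set.mem_singleton_iff] at hi
    rcases hi with rfl | rfl | rfl | rfl <;> assumption
  have h5 := Set.ncard_le_ncard h4 (Set.toFinite _)
  rw [Set.ncard_coe_finset] at h5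
  have h6 : ({c, d, e, f} : Finset (Fin 6)).card = 4 := by
    rw [Finset.card_insert_of_notMem (by simp [hcd, hce, hcf]),
      Finset.card_insert_of_notMem (by simp [hde, hdf]),
      Finset.card_insert_of_notMem (by simp [hef]), Finset.card_singleton]
  omega

theorem eq_three {t e f : Fin 6} {P : Set (Fin 6)} (hte : t ≠ e) (htf : t ≠ f) (hef : e ≠ f)
    (ht : t ∈ P) (he : e ∈ P) (hf : f ∈ P) (h3 : P.ncard ≤ 3) (i : Fin 6) (hi : i ∈ P) :
    i = t ∨ i = e ∨ i = f := by
  have h4 : (({t, e, f} : Finset (Fin 6)) : Set (Fin 6)) ⊆ P := by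
    intro i hi
    simp only [Finset.coe_insert, Finset.coe_singleton, Set.mem_insert_iff,
      Set.mem_singleton_iff] at hi
    rcases hi with rfl | rfl | rfl <;> assumption
  have h6 : ({t, e, f} : Finset (Fin 6)).card = 3 := by
    rw [Finset.card_insert_of_notMem (by simp [hte, htf]),
      Finset.card_insert_of_notMem (by simp [hef]), Finset.card_singleton]
  have h5 : (({t, e, f} : Finset (Fin 6)) : Set (Fin 6)) = P := by
    refine Set.eq_of_subset_of_ncard_le h4 ?_ (Set.toFinite _)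
    rw [Set.ncard_coe_finset, h6]; exact h3
  rw [← h5] at hi
  simpa using hi

theorem Mx.alt_key (h : Mx U) (hNA : NoArc U) {x : ℂ} {e f : Fin 6} (hm : Miss U x e f)
    {p p' : ℂ} (hpX : p ∈ XX U) (hpX' : p' ∈ XX U) (hp : dist p x = 1) (hp' : dist p' x = 1)
    (hpp : dist p' p = 1) (hep : e ∈ Pal U p) (hfp : f ∈ Pal U p) (hep' : e ∈ Pal U p')
    (hfp' : f ∈ Pal U p') {c d : Fin 6} (hcd : Miss U p c d) :
    (∃ a b, Miss U p' a b) ∧ ∀ i, i ≠ e → i ≠ f → (i ∈ Pal U p' ↔ i ∉ Pal U p) := by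
  have hxp : dist x p = 1 := by rw [dist_comm]; exact hp
  have hce : c ≠ e := fun hh => ((hcd.2 e).1 hep).1 hh.symm
  have hcf : c ≠ f := fun hh => ((hcd.2 f).1 hfp).1 hh.symm
  have hde : d ≠ e := fun hh => ((hcd.2 e).1 hep).2 hh.symm
  have hdf : d ≠ f := fun hh => ((hcd.2 f).1 hfp).2 hh.symm
  have hcx : c ∈ Pal U x := (hm.2 c).2 ⟨hce, hcf⟩
  have hdx : d ∈ Pal U x := (hm.2 d).2 ⟨hde, hdf⟩
  have hcov2 := h.miss_cov hNA hpX hcd
  have hcov2' : ∀ q, dist q p = 1 → d ∈ Pal U q ∨ c ∈ Pal U q := fun q hq => (hcov2 q hq).symm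
  have hdp' : d ∈ Pal U p' := h.both_rot hcov2 hxp hpp hp' hcx
  have hcp' : c ∈ Pal U p' := h.both_rot hcov2' hxp hpp hp' hdx
  rcases h.card_or hNA hpX' with h3 | ⟨a, b, hab⟩
  · have := card_four hcd.1 hce hcf hde hdf hm.1 hcp' hdp' hep' hfp'
    omega
  · refine ⟨⟨a, b, hab⟩, ?_⟩
    have hca : c ≠ a ∧ c ≠ b := (hab.2 c).1 hcp'
    have hda : d ≠ a ∧ d ≠ b := (hab.2 d).1 hdp'
    have hea : e ≠ a ∧ e ≠ b := (hab.2 e).1 hep'
    have hfa : f ≠ a ∧ f ≠ b := (hab.2 f).1 hfp'
    intro i hie hif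
    rw [hab.2 i, hcd.2 i]
    rcases six_all hab.1 hca.1.symm hda.1.symm hea.1.symm hfa.1.symm hca.2.symm hda.2.symm
      hea.2.symm hfa.2.symm hcd.1 hce hcf hde hdf hm.1 i with rfl | rfl | rfl | rfl | rfl | rfl
    · have h1 := hca.1.symm; have h2 := hda.1.symm; tauto
    · have h1 := hca.2.symm; have h2 := hda.2.symm; tauto
    · tauto
    · tauto
    · exact absurd rfl hie
    · exact absurd rfl hif

/-- the alternation lemma -/
theorem Mx.alt (h : Mx U) (hNA : NoArc U) {x y y' : ℂ} {e f : Fin 6}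
    (hx : x ∈ XX U) (hm : Miss U x e f) (hy : dist y x = 1) (hy' : dist y' x = 1)
    (hyy : dist y y' = 1) (he : e ∈ Pal U y) (hf : f ∈ Pal U y) :
    e ∈ Pal U y' ∧ f ∈ Pal U y' ∧ y ∈ XX U ∧ y' ∈ XX U ∧ (∃ c d, Miss U y c d) ∧
      (∃ a b, Miss U y' a b) ∧ ∀ i, i ≠ e → i ≠ f → (i ∈ Pal U y' ↔ i ∉ Pal U y) := by
  have hyy' : dist y' y = 1 := by rw [dist_comm]; exact hyy
  have hcov := h.miss_cov hNA hx hm
  have hcov' : ∀ q, dist q x = 1 → f ∈ Pal U q ∨ e ∈ Pal U q := fun q hq => (hcov q hq).symm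
  have hf' : f ∈ Pal U y' := h.both_rot hcov hy hy' hyy' he
  have he' : e ∈ Pal U y' := h.both_rot hcov' hy hy' hyy' hf
  have hyX : y ∈ XX U := by
    intro i hi
    by_cases hie : i = e
    · subst hie; exact h.notMem' hi hyy he'
    by_cases hif : i = f
    · subst hif; exact h.notMem' hi hyy hf'
    exact h.notMem' hi hy ((hm.2 i).2 ⟨hie, hif⟩)
  have hyX' : y' ∈ XX U := by
    intro i hi
    by_cases hie : i = e
    · subst hie; exact h.notMem' hi hyy' he
    by_cases hif : i = f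
    · subst hif; exact h.notMem' hi hyy' hf
    exact h.notMem' hi hy' ((hm.2 i).2 ⟨hie, hif⟩)
  refine ⟨he', hf', hyX, hyX', ?_⟩
  rcases h.card_or hNA hyX with h3 | ⟨c, d, hcd⟩
  · rcases h.card_or hNA hyX' with h3' | ⟨a, b, hab⟩
    · exfalso
      obtain ⟨t, hty, hty'⟩ := Set.not_subset.1 (h.na_sub hNA hyX' (y := y) hyy)
      have hte : t ≠ e := fun hh => hty' (hh ▸ he')
      have htf : t ≠ f := fun hh => hty' (hh ▸ hf')
      have htx : t ∈ Pal U x := (hm.2 t).2 ⟨hte, htf⟩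
      have hsub : Pal U y ⊆ insert t (Pal U y') := by
        intro i hi
        rcases eq_three hte htf hm.1 hty he hf h3 i hi with rfl | rfl | rfl
        · exact Or.inl rfl
        · exact Or.inr he'
        · exact Or.inr hf'
      exact not_line' hy' hy (h.lemmaX hyX' hyy h3' hsub hy htx)
    · obtain ⟨h5, h6⟩ := h.alt_key hNA hm hyX' hyX hy' hy hyy he' hf' he hf hab
      exact ⟨h5, ⟨a, b, hab⟩, fun i h7 h8 =>
        ⟨fun h9 h10 => (h6 i h7 h8).1 h10 h9, fun h9 => by
          by_contra h10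
          exact h9 ((h6 i h7 h8).2 h10)⟩⟩
  · obtain ⟨h5, h6⟩ := h.alt_key hNA hm hyX hyX' hy hy' hyy' he hf he' hf' hcd
    exact ⟨⟨c, d, hcd⟩, h5, h6⟩

/-- a point with both colours followed by an arc with `f` only -/
theorem Mx.exists_start (h : Mx U) {x : ℂ} {e f : Fin 6}
    (hcov : ∀ q, dist q x = 1 → e ∈ Pal U q ∨ f ∈ Pal U q) :
    ∃ t1 t0 : ℝ, t1 < t0 ∧ e ∈ Pal U (x + cis t1) ∧ ∀ t ∈ Icc t1 t0, f ∈ Pal U (x + cis t) := by
  obtain ⟨y, hy, hey⟩ := h.not_all x e
  obtain ⟨y', hy', hfy'⟩ := h.not_all x f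
  obtain ⟨t0, ht0⟩ := exists_cis (u := y - x) (by rw [← dist_eq_norm]; exact hy)
  obtain ⟨s0, hs0⟩ := exists_cis (u := y' - x) (by rw [← dist_eq_norm]; exact hy')
  have ht0' : x + cis t0 = y := by rw [← ht0]; ring
  have hs0' : x + cis s0 = y' := by rw [← hs0]; ring
  have hg : Continuous fun t : ℝ => x + cis t := continuous_const.add continuous_cis
  set E : Set ℝ := {t | e ∈ Pal U (x + cis t)} with hE
  have hEc : IsClosed E := isClosed_closure.preimage hg
  have hFc : IsClosed {t : ℝ | f ∈ Pal U (x + cis t)} := isClosed_closure.preimage hg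
  have hs : s0 ∈ E := by
    rcases hcov y' hy' with h1 | h1
    · simpa [hE, hs0'] using h1
    · exact absurd h1 hfy'
  have ht : t0 ∉ E := by simpa [hE, ht0'] using hey
  -- a point of `E` below `t0`
  have hper : ∀ (n : ℕ), s0 - n * (2 * Real.pi) ∈ E := by
    intro n
    have : cis (s0 - n * (2 * Real.pi)) = cis s0 := by
      unfold cis
      rw [Complex.exp_eq_exp_iff_exists_int]
      exact ⟨-n, by push_cast; ring⟩
    have hs' : e ∈ Pal U (x + cis s0) := hs
    have h9 : e ∈ Pal U (x + cis (s0 - n * (2 * Real.pi))) := by rw [this]; exact hs'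
    exact h9
  obtain ⟨n, hn⟩ := exists_nat_gt ((s0 - t0) / (2 * Real.pi))
  have hpi := Real.pi_pos
  have hlow : s0 - n * (2 * Real.pi) ≤ t0 := by
    rw [div_lt_iff₀ (by positivity)] at hn; linarith
  have hne : (E ∩ Iic t0).Nonempty := ⟨_, hper n, hlow⟩
  have hbdd : BddAbove (E ∩ Iic t0) := ⟨t0, fun t ht => ht.2⟩
  have hcl : IsClosed (E ∩ Iic t0) := hEc.inter isClosed_Iic
  have hmem := hcl.csSup_mem hne hbdd
  set t1 := sSup (E ∩ Iic t0) with ht1
  have hlt : t1 < t0 := by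
    have h0 : t1 ≤ t0 := hmem.2
    rcases h0.lt_or_eq with h1 | h1
    · exact h1
    · exact absurd (h1 ▸ hmem.1) ht
  have hIoc : ∀ t ∈ Ioc t1 t0, f ∈ Pal U (x + cis t) := by
    intro t ht
    rcases hcov (x + cis t) (dist_add_cis x t) with h1 | h1
    · exact absurd (le_csSup hbdd ⟨h1, ht.2⟩) (not_le.2 ht.1)
    · exact h1
  refine ⟨t1, t0, hlt, hmem.1, ?_⟩
  have h2 : closure (Ioc t1 t0) ⊆ {t : ℝ | f ∈ Pal U (x + cis t)} :=
    hFc.closure_subset_iff.2 hIoc
  rw [closure_Ioc hlt.ne] at h2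
  exact h2

/-- near `p = x + u ω`, no point outside the disc about `y₀ = x + u` has the colour `f` if an
arc starting at `y₀` has it -/
theorem Mx.f_near (h : Mx U) {x : ℂ} {f : Fin 6} {t1 t0 : ℝ} (hlt : t1 < t0)
    (hf : ∀ t ∈ Icc t1 t0, f ∈ Pal U (x + cis t)) :
    ∀ᶠ q in 𝓝 (x + cis t1 * om), 1 < dist q (x + cis t1) → f ∉ Pal U q := by
  set δ := min (t0 - t1) 1 with hδ
  have hδ0 : 0 < δ := lt_min (by linarith) one_pos
  have hδ1 : δ ≤ 1 := min_le_right _ _
  have hδt : t1 + δ ≤ t0 := by have := min_le_left (t0 - t1) 1; linarith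
  -- the far end of the arc is at distance less than one from `p`
  have hfar : dist (x + cis (t1 + δ)) (x + cis t1 * om) < 1 := by
    have h1 : x + cis (t1 + δ) - (x + cis t1 * om) = cis t1 * (cis δ - om) := by
      have : cis (t1 + δ) = cis t1 * cis δ := by
        unfold cis; rw [← Complex.exp_add]; congr 1; push_cast; ring
      rw [this]; ring
    rw [dist_eq_norm, h1, norm_mul, norm_cis, one_mul]
    have h2 : ‖cis δ - om‖ ^ 2 = 2 - 2 * Real.cos (Real.pi / 3 - δ) := by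
      have hre : ∀ t : ℝ, (cis t).re = Real.cos t := by
        intro t; unfold cis; rw [Complex.exp_ofReal_mul_I_re]
      have him : ∀ t : ℝ, (cis t).im = Real.sin t := by
        intro t; unfold cis; rw [Complex.exp_ofReal_mul_I_im]
      rw [Complex.sq_norm, Complex.normSq_apply, om, Complex.sub_re, Complex.sub_im, hre, hre,
        him, him, Real.cos_sub]
      nlinarith [Real.sin_sq_add_cos_sq δ, Real.sin_sq_add_cos_sq (Real.pi / 3)]
    have h3 : 1 / 2 < Real.cos (Real.pi / 3 - δ) := by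
      rw [← Real.cos_pi_div_three, ← Real.cos_abs (Real.pi / 3 - δ)]
      have hpi := Real.pi_gt_three
      refine Real.cos_lt_cos_of_nonneg_of_le_pi (abs_nonneg _) (by linarith) ?_
      rw [abs_lt]; constructor <;> linarith
    nlinarith [norm_nonneg (cis δ - om)]
  have hev : ∀ᶠ q in 𝓝 (x + cis t1 * om), dist (x + cis (t1 + δ)) q < 1 :=
    (continuous_const.dist continuous_id).continuousAt.eventually (Iio_mem_nhds hfar)
  filter_upwards [hev] with q hq hq1
  have hQ : IsPreconnected ((fun t : ℝ => x + cis t) '' Icc t1 (t1 + δ)) :=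
    isPreconnected_Icc.image _ (continuous_const.add continuous_cis).continuousOn
  refine h.wlemma (i := f) hQ ?_ (z := q) ⟨t1 + δ, ⟨by linarith, le_rfl⟩, rfl⟩
    ⟨t1, ⟨le_rfl, by linarith⟩, rfl⟩ hq (by rw [dist_comm]; exact hq1)
  rintro _ ⟨r, hr, rfl⟩
  exact hf r ⟨hr.1, hr.2.trans hδt⟩

/-- no point of `XX` has exactly four colours -/
theorem Mx.no_four (h : Mx U) (hNA : NoArc U) {x : ℂ} (hx : x ∈ XX U) {e f : Fin 6}
    (hm : Miss U x e f) : False := by
  have hcov := h.miss_cov hNA hx hm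
  have hcov' : ∀ q, dist q x = 1 → f ∈ Pal U q ∨ e ∈ Pal U q := fun q hq => (hcov q hq).symm
  obtain ⟨t1, t0, hlt, he1, hf1⟩ := h.exists_start hcov
  set u := cis t1 with hu
  have hun : ‖u‖ = 1 := norm_cis t1
  have hnear := h.f_near hlt hf1
  rw [← hu] at hnear
  have hfy : f ∈ Pal U (x + u) := hf1 t1 ⟨le_rfl, hlt.le⟩
  -- the points
  have d0 : dist (x + u) x = 1 := by rw [dist_eq_norm, add_sub_cancel_left, hun]
  have dp : dist (x + u * om) x = 1 := by
    rw [dist_eq_norm, add_sub_cancel_left, norm_mul, hun, norm_om, one_mul]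
  have d2 : dist (x + u * om ^ 2) x = 1 := by
    rw [dist_eq_norm, add_sub_cancel_left, norm_mul, hun, norm_pow, norm_om]; norm_num
  have d0p : dist (x + u) (x + u * om) = 1 := by
    have : x + u - (x + u * om) = u * (1 - om) := by ring
    rw [dist_eq_norm, this, norm_mul, hun, norm_om_sub, one_mul]
  have dp2 : dist (x + u * om) (x + u * om ^ 2) = 1 := by
    have : x + u * om - (x + u * om ^ 2) = u * om * (1 - om) := by ring
    rw [dist_eq_norm, this, norm_mul, norm_mul, hun, norm_om, norm_om_sub]; norm_num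
  obtain ⟨hep, hfp, h0X, hpX, -, ⟨a, b, hab⟩, -⟩ := h.alt hNA hx hm d0 dp d0p he1 hfy
  obtain ⟨he2, hf2, -, h2X, -, -, hpy2⟩ := h.alt hNA hx hm dp d2 dp2 hep hfp
  -- around `p`
  have d2p : dist (x + u * om ^ 2) (x + u * om) = 1 := by rw [dist_comm]; exact dp2
  have dnp : dist (x + u * om + u * om ^ 2) (x + u * om) = 1 := by
    rw [dist_eq_norm, add_sub_cancel_left, norm_mul, hun, norm_pow, norm_om]; norm_num
  have d2n : dist (x + u * om ^ 2) (x + u * om + u * om ^ 2) = 1 := by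
    have : x + u * om ^ 2 - (x + u * om + u * om ^ 2) = -(u * om) := by ring
    rw [dist_eq_norm, this, norm_neg, norm_mul, hun, norm_om, one_mul]
  have ha : a ≠ e ∧ a ≠ f := ⟨fun hh => ((hab.2 e).1 hep).1 hh.symm,
    fun hh => ((hab.2 f).1 hfp).1 hh.symm⟩
  have hb : b ≠ e ∧ b ≠ f := ⟨fun hh => ((hab.2 e).1 hep).2 hh.symm,
    fun hh => ((hab.2 f).1 hfp).2 hh.symm⟩
  have ha2 : a ∈ Pal U (x + u * om ^ 2) :=
    (hpy2 a ha.1 ha.2).2 fun hh => ((hab.2 a).1 hh).1 rfl
  have hb2 : b ∈ Pal U (x + u * om ^ 2) :=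
    (hpy2 b hb.1 hb.2).2 fun hh => ((hab.2 b).1 hh).2 rfl
  obtain ⟨han, hbn, -, hnX, -, -, h2n⟩ := h.alt hNA hpX hab d2p dnp d2n ha2 hb2
  -- every colour different from `e`, `f` is in the palette of `n`
  have hn : ∀ i, i ≠ e → i ≠ f → i ∈ Pal U (x + u * om + u * om ^ 2) := by
    intro i hie hif
    by_cases hia : i = a
    · rw [hia]; exact han
    by_cases hib : i = b
    · rw [hib]; exact hbn
    refine (h2n i hia hib).2 fun hh => ?_
    exact (hpy2 i hie hif).1 hh ((hab.2 i).2 ⟨hia, hib⟩)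
  -- the circle about `n` near `p` has the colour `e`
  have hJ : ∀ᶠ q in 𝓝[sphere (x + u * om + u * om ^ 2) 1] (x + u * om), e ∈ Pal U q := by
    filter_upwards [mem_nhdsWithin_of_mem_nhds hnear, self_mem_nhdsWithin] with q h1 h2
    by_cases hqp : q = x + u * om
    · rw [hqp]; exact hep
    have h2' : dist q (x + u * om + u * om ^ 2) = 1 := h2
    have hfar : 1 < dist q (x + u) := by
      have e1 : q - (x + u * om + u * om ^ 2) = (q - (x + u * om)) - u * om ^ 2 := by ring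
      have e2 : q - (x + u) = (q - (x + u * om)) + u * om ^ 2 := by rw [om_sq]; ring
      rw [dist_eq_norm, e1] at h2'
      rw [dist_eq_norm, e2]
      have hpar := parallelogram_law_with_norm ℝ (q - (x + u * om)) (u * om ^ 2)
      have hv : ‖u * om ^ 2‖ = 1 := by rw [norm_mul, hun, norm_pow, norm_om]; norm_num
      have hs : 0 < ‖q - (x + u * om)‖ := norm_pos_iff.2 (sub_ne_zero.2 hqp)
      rw [h2', hv] at hpar
      nlinarith [norm_nonneg (q - (x + u * om) + u * om ^ 2)]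
    have hfq := h1 hfar
    obtain ⟨m, hmq, hmn⟩ := Set.not_subset.1 (h.na_sub hNA hnX (y := q) h2)
    by_cases hme : m = e
    · rw [← hme]; exact hmq
    by_cases hmf : m = f
    · exact absurd (hmf ▸ hmq) hfq
    exact absurd (hn m hme hmf) hmn
  have dpn : dist (x + u * om) (x + u * om + u * om ^ 2) = 1 := by rw [dist_comm]; exact dnp
  have hu0 : u ≠ 0 := by intro hh; rw [hh] at hun; simp at hun
  have ho0 : om ≠ 0 := by intro hh; have := norm_om; rw [hh] at this; simp at this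
  rcases h.partner_line dpn hJ dp2 he2 with h3 | h3
  · have : u * om = 0 := by linear_combination -h3
    exact (mul_ne_zero hu0 ho0) this
  · have h4 : u * om * (2 * om - 1) = 0 := by linear_combination h3
    have h5 : 2 * om - 1 = 0 := (mul_eq_zero.1 h4).resolve_left (mul_ne_zero hu0 ho0)
    have h6 : om = 1 / 2 := by linear_combination h5 / 2
    have := norm_om
    rw [h6] at this
    norm_num at this

/-- **Without unit arcs in `XX` (centred in `XX`), every point of `XX` has at most three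
colours.** -/
theorem Mx.card_le_three (h : Mx U) (hNA : NoArc U) {x : ℂ} (hx : x ∈ XX U) :
    (Pal U x).ncard ≤ 3 := by
  rcases h.card_or hNA hx with h1 | ⟨e, f, hm⟩
  · exact h1
  · exact (h.no_four hNA hx hm).elim

end Vale.Agent.P032.Six
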