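import Vale.Agent.P032.S5.H360.Solid

/-!
# P032: directions at a point

`Ev z x P` : `P` holds near `z` in all directions near `x`.
-/

open Set Filter Topology Metric

noncomputable section

namespace Vale.Agent.P032.Six

namespace R765

variable {k : ℕ} {U : Fin k → Set ℂ} {T : ℂ → Set (Fin k)}

/-- `P` holds near `z` in directions near `x` -/
def Ev (z x : ℂ) (P : ℂ → Prop) : Prop :=
  ∀ᶠ a : ℝ × ℂ in 𝓝 ((0 : ℝ), x), 0 < a.1 → P (z + a.1 * a.2)

theorem Ev.mono {z x : ℂ} {P Q : ℂ → Prop} (h : Ev z x P) (hPQ : ∀ w, P w → Q w) : Ev z x Q :=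
  Eventually.mono h fun _ ha h0 => hPQ _ (ha h0)

theorem Ev.and {z x : ℂ} {P Q : ℂ → Prop} (h : Ev z x P) (h' : Ev z x Q) :
    Ev z x fun w => P w ∧ Q w := by
  unfold Ev at *
  filter_upwards [h, h'] with a h1 h2 h0
  exact ⟨h1 h0, h2 h0⟩

theorem tendsto_Ev (z x : ℂ) : Tendsto (fun a : ℝ × ℂ => z + a.1 * a.2) (𝓝 ((0 : ℝ), x)) (𝓝 z) := by
  have hc : Continuous fun a : ℝ × ℂ => z + a.1 * a.2 := by fun_prop
  have := hc.tendsto ((0 : ℝ), x)
  simpa using this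

theorem Ev.of_nhds {z : ℂ} (x : ℂ) {P : ℂ → Prop} (h : ∀ᶠ w in 𝓝 z, P w) : Ev z x P :=
  ((tendsto_Ev z x).eventually h).mono fun _ ha _ => ha

theorem Ev.ray {z x : ℂ} {P : ℂ → Prop} (h : Ev z x P) :
    ∃ δ > 0, ∀ t : ℝ, 0 < t → t < δ → P (z + t * x) := by
  have hc : Continuous fun t : ℝ => (t, x) := by fun_prop
  have h1 : ∀ᶠ t : ℝ in 𝓝 0, 0 < t → P (z + t * x) := (hc.tendsto (0 : ℝ)).eventually h
  obtain ⟨δ, hδ, hb⟩ := Metric.eventually_nhds_iff.1 h1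
  refine ⟨δ, hδ, fun t ht ht' => hb ?_ ht⟩
  rw [Real.dist_eq, sub_zero, abs_of_pos ht]
  exact ht'

theorem Ev.exists {z x : ℂ} {P : ℂ → Prop} (h : Ev z x P) : ∃ w, P w := by
  obtain ⟨δ, hδ, h1⟩ := h.ray
  exact ⟨_, h1 (δ / 2) (by linarith) (by linarith)⟩

theorem Ev.open {z x : ℂ} {P : ℂ → Prop} (h : Ev z x P) : ∀ᶠ x' in 𝓝 x, Ev z x' P := by
  have h1 := eventually_eventually_nhds.2 h
  have hc : Continuous fun x' : ℂ => ((0 : ℝ), x') := by fun_prop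
  exact (hc.tendsto x).eventually h1

/-- dichotomy -/
theorem Ev.dich {z x : ℂ} {P Q : ℂ → Prop} (hP : IsClosed {w | P w}) (hQ : IsClosed {w | Q w})
    (h : Ev z x fun w => P w ∨ Q w) (h' : Ev z x fun w => ¬ (P w ∧ Q w)) : Ev z x P ∨ Ev z x Q := by
  unfold Ev at h h'
  obtain ⟨s, hs, t, ht, hst⟩ := mem_nhds_prod_iff.1 (h.and h')
  obtain ⟨δ, hδ, hδs⟩ := Metric.mem_nhds_iff.1 hs
  obtain ⟨r, hr, hrt⟩ := Metric.mem_nhds_iff.1 ht
  have hc : Continuous fun a : ℝ × ℂ => z + a.1 * a.2 := by fun_prop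
  set R : Set (ℝ × ℂ) := Ioo 0 δ ×ˢ ball x r with hR
  have hRc : IsPreconnected R := isPreconnected_Ioo.prod (convex_ball x r).isPreconnected
  have hmem : ∀ a ∈ R, (P (z + a.1 * a.2) ∨ Q (z + a.1 * a.2)) ∧
      ¬ (P (z + a.1 * a.2) ∧ Q (z + a.1 * a.2)) := by
    rintro a ⟨ha1, ha2⟩
    have h1 : a ∈ s ×ˢ t := ⟨hδs (by
      rw [mem_ball, Real.dist_eq, sub_zero, abs_of_pos ha1.1]; exact ha1.2), hrt ha2⟩
    have h2 := hst h1
    exact ⟨h2.1 ha1.1, h2.2 ha1.1⟩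
  have hnh : ∀ {W : ℂ → Prop}, (∀ a ∈ R, W (z + a.1 * a.2)) → Ev z x W := by
    intro W hW
    have h3 : Iio δ ×ˢ ball x r ∈ 𝓝 ((0 : ℝ), x) :=
      prod_mem_nhds (Iio_mem_nhds hδ) (ball_mem_nhds x hr)
    unfold Ev
    filter_upwards [h3] with a ha h0
    exact hW a ⟨⟨h0, ha.1⟩, ha.2⟩
  by_cases hall : ∃ a ∈ R, P (z + a.1 * a.2)
  · left
    refine hnh fun a ha => ?_
    rcases (hmem a ha).1 with h1 | h1
    · exact h1
    · exfalso
      obtain ⟨b, hb, hbP⟩ := hall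
      obtain ⟨c, hcR, hc1, hc2⟩ := isPreconnected_closed_iff.1 hRc
        {a | P (z + a.1 * a.2)} {a | Q (z + a.1 * a.2)} (hP.preimage hc) (hQ.preimage hc)
        (fun a ha => (hmem a ha).1) ⟨b, hb, hbP⟩ ⟨a, ha, h1⟩
      exact (hmem c hcR).2 ⟨hc1, hc2⟩
  · right
    refine hnh fun a ha => ?_
    rcases (hmem a ha).1 with h1 | h1
    · exact absurd ⟨a, ha, h1⟩ hall
    · exact h1

/-- along a segment of directions the type is constant -/
theorem Ev.seg {z x0 x1 : ℂ} {P Q : ℂ → Prop} (hP : IsClosed {w | P w}) (hQ : IsClosed {w | Q w})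
    (h : ∀ x ∈ segment ℝ x0 x1, Ev z x fun w => P w ∨ Q w)
    (h' : ∀ x ∈ segment ℝ x0 x1, Ev z x fun w => ¬ (P w ∧ Q w)) (h0 : Ev z x0 P) (h1 : Ev z x1 Q) :
    False := by
  have hc : IsPreconnected (segment ℝ x0 x1) := (convex_segment x0 x1).isPreconnected
  have hopen : ∀ W : ℂ → Prop, IsOpen {x | Ev z x W} := fun W =>
    isOpen_iff_mem_nhds.2 fun x hx => Ev.open hx
  obtain ⟨x, hx, hxP, hxQ⟩ := hc {x | Ev z x P} {x | Ev z x Q} (hopen P) (hopen Q)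
    (fun x hx => Ev.dich hP hQ (h x hx) (h' x hx)) ⟨x0, left_mem_segment ℝ x0 x1, h0⟩
    ⟨x1, right_mem_segment ℝ x0 x1, h1⟩
  obtain ⟨w, ⟨hw1, hw2⟩, hw3⟩ := ((Ev.and hxP hxQ).and (h' x hx)).exists
  exact hw3 ⟨hw1, hw2⟩

/-- a nappe perpendicular to `n` has no colour of an arc at `z + n` -/
theorem nappe (h : Irr U T) {z n : ℂ} {s : ℝ} (hs : s ^ 2 = 1) (hn : ‖n‖ = 1) {c : Fin k}
    (hJ : ∀ᶠ q in 𝓝[sphere z 1] (z + n), c ∈ Pal U q) :
    Ev z (s * (Complex.I * n)) fun w => c ∉ T w := by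
  set x : ℂ := s * (Complex.I * n) with hx
  have hxn : ‖x‖ = 1 := by
    have h1 : |s| = 1 := by
      have : |s| ^ 2 = 1 := by rw [sq_abs, hs]
      nlinarith [abs_nonneg s]
    rw [hx, norm_mul, norm_mul, hn, Complex.norm_I, Complex.norm_real, Real.norm_eq_abs, h1]
    norm_num
  -- the point of the circle
  let Q : ℝ × ℂ → ℂ := fun a => z + a.2 / (‖a.2‖ : ℂ) *
    (((a.1 * ‖a.2‖ / 2 : ℝ) : ℂ) - ((s * Real.sqrt (1 - (a.1 * ‖a.2‖ / 2) ^ 2) : ℝ) : ℂ) * Complex.I)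
  have hQc : ContinuousAt Q ((0 : ℝ), x) := by
    have h1 : ContinuousAt (fun a : ℝ × ℂ => a.2 / (‖a.2‖ : ℂ)) ((0 : ℝ), x) := by
      refine ContinuousAt.div (by fun_prop) (by fun_prop) ?_
      simp only [hxn]; norm_num
    refine continuousAt_const.add (h1.mul ?_)
    refine Continuous.continuousAt ?_
    refine Continuous.sub (by fun_prop) (Continuous.mul ?_ continuous_const)
    refine Complex.continuous_ofReal.comp (continuous_const.mul (Real.continuous_sqrt.comp ?_))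
    fun_prop
  have hs2 : (s : ℂ) * s = 1 := by
    have : s * s = 1 := by rw [← sq, hs]
    exact_mod_cast this
  have hQ0 : Q ((0 : ℝ), x) = z + n := by
    simp only [Q, hxn]
    rw [hx]
    have hI : Complex.I * Complex.I = -1 := Complex.I_mul_I
    simp only [zero_mul, zero_div, Complex.ofReal_zero, Complex.ofReal_one, div_one, zero_sub]
    norm_num
    linear_combination (-(s : ℂ) * s * n) * hI + n * hs2
  have hQt : Tendsto Q (𝓝 ((0 : ℝ), x)) (𝓝 (z + n)) := by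
    have := hQc.tendsto
    rwa [hQ0] at this
  have hsmall : ∀ᶠ a : ℝ × ℂ in 𝓝 ((0 : ℝ), x), (a.1 * ‖a.2‖ / 2) ^ 2 < 1 ∧ a.2 ≠ 0 := by
    have h1 : ContinuousAt (fun a : ℝ × ℂ => (a.1 * ‖a.2‖ / 2) ^ 2) ((0 : ℝ), x) := by fun_prop
    have h2 : ∀ᶠ a : ℝ × ℂ in 𝓝 ((0 : ℝ), x), (a.1 * ‖a.2‖ / 2) ^ 2 < 1 := by
      refine h1.eventually_lt continuousAt_const ?_
      simp
    have h3 : ∀ᶠ a : ℝ × ℂ in 𝓝 ((0 : ℝ), x), a.2 ≠ 0 := by
      have h4 : ContinuousAt (fun a : ℝ × ℂ => a.2) ((0 : ℝ), x) := by fun_prop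
      refine h4.eventually_ne ?_
      intro h0
      have h0' : x = 0 := h0
      rw [h0', norm_zero] at hxn
      exact zero_ne_one hxn
    exact h2.and h3
  have hnorm : ∀ a : ℝ × ℂ, (a.1 * ‖a.2‖ / 2) ^ 2 < 1 → a.2 ≠ 0 → ∀ e : ℝ, e ^ 2 = 1 →
      ‖a.2 / (‖a.2‖ : ℂ) * (((a.1 * ‖a.2‖ / 2 : ℝ) : ℂ) +
        ((e * Real.sqrt (1 - (a.1 * ‖a.2‖ / 2) ^ 2) : ℝ) : ℂ) * Complex.I)‖ = 1 := by
    intro a ha ha0 e he
    have h1 : ‖a.2 / (‖a.2‖ : ℂ)‖ = 1 := by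
      rw [norm_div, Complex.norm_real, norm_norm]
      exact div_self (norm_ne_zero_iff.2 ha0)
    rw [norm_mul, h1, one_mul, Complex.norm_add_mul_I]
    have h2 : Real.sqrt (1 - (a.1 * ‖a.2‖ / 2) ^ 2) ^ 2 = 1 - (a.1 * ‖a.2‖ / 2) ^ 2 :=
      Real.sq_sqrt (by linarith)
    have h3 : (a.1 * ‖a.2‖ / 2) ^ 2 + (e * Real.sqrt (1 - (a.1 * ‖a.2‖ / 2) ^ 2)) ^ 2 = 1 := by
      rw [mul_pow, h2, he]; ring
    rw [h3, Real.sqrt_one]
  have hQs : ∀ a : ℝ × ℂ, (a.1 * ‖a.2‖ / 2) ^ 2 < 1 → a.2 ≠ 0 → dist (Q a) z = 1 := by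
    intro a ha ha0
    have h1 := hnorm a ha ha0 (-s) (by rw [neg_sq]; exact hs)
    rw [dist_eq_norm]
    rw [← h1]
    congr 1
    simp only [Q]
    push_cast
    ring
  have hQt' : Tendsto Q (𝓝 ((0 : ℝ), x)) (𝓝[sphere z 1] (z + n)) := by
    refine tendsto_nhdsWithin_iff.2 ⟨hQt, ?_⟩
    filter_upwards [hsmall] with a ha
    exact hQs a ha.1 ha.2
  have hfar : ∀ᶠ a : ℝ × ℂ in 𝓝 ((0 : ℝ), x), dist (z + a.1 * a.2) z < 1 :=
    (tendsto_Ev z x).eventually (ball_mem_nhds z one_pos)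
  unfold Ev
  filter_upwards [hsmall, hfar, hQt'.eventually (eventually_eventually_nhdsWithin.2 hJ)] with
    a ha h2 h3 h0 hcT
  have hw1 : dist (z + a.1 * a.2) (Q a) = 1 := by
    have h1 := hnorm a ha.1 ha.2 s hs
    rw [dist_eq_norm, ← h1]
    congr 1
    simp only [Q]
    have h4 : (‖a.2‖ : ℂ) ≠ 0 := by exact_mod_cast norm_ne_zero_iff.2 ha.2
    push_cast
    field_simp
    ring
  have hne : z ≠ z + a.1 * a.2 := by
    intro h5
    have h6 : (a.1 : ℂ) * a.2 = 0 := by linear_combination -h5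
    rcases mul_eq_zero.1 h6 with h7 | h7
    · have : a.1 = 0 := by exact_mod_cast h7
      linarith
    · exact ha.2 h7
  refine h.mx.sweep_notMem (z := z) (q := Q a) (w := z + a.1 * a.2) (P := {c})
    (hQs a ha.1 ha.2) (h3.mono fun q hq => by rintro _ rfl; exact hq) hw1 hne ?_ rfl (h.sub _ hcT)
  intro h5
  have h6 : (z + a.1 * a.2) - z = 2 * (Q a - z) := by linear_combination h5
  have h7 : dist (z + a.1 * a.2) z = 2 := by
    rw [dist_eq_norm, h6, norm_mul, ← dist_eq_norm, hQs a ha.1 ha.2]; simp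
  linarith

/-! ### sides of the circle -/

/-- `c` is absent outside `S(z)` near `z + n` -/
def Out (T : ℂ → Set (Fin k)) (z n : ℂ) (c : Fin k) : Prop :=
  ∀ᶠ v in 𝓝 (z + n), 1 < dist v z → c ∉ T v

/-- `c` is absent inside `S(z)` near `z + n` -/
def Inn (T : ℂ → Set (Fin k)) (z n : ℂ) (c : Fin k) : Prop :=
  ∀ᶠ v in 𝓝 (z + n), dist v z < 1 → c ∉ T v

theorem out_of_solid (h : Irr U T) {z n x : ℂ} {c : Fin k} (hn : ‖n‖ = 1)
    (hx : Ev z x fun w => T w = {c}) (hs : 0 < dt360 x n) : Out T z n c := by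
  obtain ⟨δ, hδ, h1⟩ := hx.ray
  have h2 := h.solid_out (z := z) (y := z + n) (x := x) (p := c) hδ h1
    (by rw [dist_eq_norm, add_sub_cancel_left]; exact hn) (by rw [add_sub_cancel_left]; exact hs)
  exact h2.mono fun v hv hv1 hc => hv hv1 (h.sub v hc)

theorem inn_of_solid (h : Irr U T) {z n x : ℂ} {c : Fin k} (hn : ‖n‖ = 1)
    (hx : Ev z x fun w => T w = {c}) (hs : dt360 x n < 0) : Inn T z n c := by
  obtain ⟨δ, hδ, h1⟩ := hx.ray
  have h2 := h.solid_in (z := z) (y := z + n) (x := x) (p := c) hδ h1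
    (by rw [dist_eq_norm, add_sub_cancel_left]; exact hn) (by rw [add_sub_cancel_left]; exact hs)
  exact h2.mono fun v hv hv1 hc => hv hv1 (h.sub v hc)

/-- not absent on both sides -/
theorem not_out_inn (h : Irr U T) {z n : ℂ} {c : Fin k} (hn : ‖n‖ = 1) (hc : c ∈ T (z + n))
    (h1 : Out T z n c) (h2 : Inn T z n c) : False := by
  obtain ⟨w, hTw, hw1, hw2⟩ := ((h.pure (z + n) c hc).and_eventually
    (h1.eventually_nhds.and h2.eventually_nhds)).exists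
  have hev : ∀ᶠ v in 𝓝 w, dist v z = 1 := by
    filter_upwards [hw1, hw2, h.nhd w] with v hv1 hv2 hv3
    have hcv : c ∈ T v := by
      obtain ⟨j, hj⟩ := h.ne v
      have h3 := hv3 hj
      rw [hTw] at h3
      have h4 : j = c := h3
      exact h4 ▸ hj
    rcases lt_trichotomy (dist v z) 1 with h3 | h3 | h3
    · exact absurd hcv (hv2 h3)
    · exact h3
    · exact absurd hcv (hv1 h3)
  have hwz : dist w z = 1 := hev.self_of_nhds
  have ht : Tendsto (fun s : ℝ => z + ((1 + s : ℝ) : ℂ) * (w - z)) (𝓝[>] 0) (𝓝 w) := by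
    have hc : Continuous fun s : ℝ => z + ((1 + s : ℝ) : ℂ) * (w - z) := by fun_prop
    have := (hc.tendsto 0).mono_left (nhdsWithin_le_nhds (s := Ioi (0 : ℝ)))
    simpa using this
  obtain ⟨s, hs, hs0⟩ := ((ht.eventually hev).and self_mem_nhdsWithin).exists
  have hs0' : (0 : ℝ) < s := hs0
  rw [dist_eq_norm, add_sub_cancel_left, norm_mul, ← dist_eq_norm, hwz, mul_one,
    Complex.norm_real, Real.norm_of_nonneg (by linarith)] at hs
  linarith

/-- two solid directions of one colour are on the same side -/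
theorem sign (h : Irr U T) {z n x1 x2 : ℂ} {c : Fin k} (hn : ‖n‖ = 1) (hc : c ∈ T (z + n))
    (h1 : Ev z x1 fun w => T w = {c}) (h2 : Ev z x2 fun w => T w = {c})
    (hs1 : 0 < dt360 x1 n) (hs2 : dt360 x2 n < 0) : False :=
  not_out_inn h hn hc (out_of_solid h hn h1 hs1) (inn_of_solid h hn h2 hs2)

theorem normSq_tx (t : ℝ) (x n : ℂ) (hn : ‖n‖ = 1) :
    ‖(t : ℂ) * x + n‖ ^ 2 = 1 + t * (2 * dt360 x n + t * ‖x‖ ^ 2) := by
  have hn' : n.re ^ 2 + n.im ^ 2 = 1 := by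
    have h3 : ‖n‖ ^ 2 = 1 := by rw [hn]; norm_num
    rw [Complex.sq_norm, Complex.normSq_apply] at h3
    linarith
  rw [Complex.sq_norm, Complex.normSq_apply, Complex.sq_norm, Complex.normSq_apply, dt360]
  simp only [Complex.add_re, Complex.add_im, Complex.re_ofReal_mul, Complex.im_ofReal_mul]
  linear_combination hn'

theorem continuous_dt (n : ℂ) : Continuous fun x : ℂ => dt360 x n := by
  unfold dt360
  fun_prop

/-- the other colour of an exact pair is absent in the half plane outside -/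
theorem ev_out (h : Irr U T) {z n x : ℂ} {c b : Fin k} (hn : ‖n‖ = 1) (ho : Out T z n c)
    (hT : T (z + n) ⊆ {c, b}) (hs : 0 < dt360 x n) : Ev z x fun w => b ∉ T w := by
  have hv : Tendsto (fun a : ℝ × ℂ => z + a.1 * a.2 + n) (𝓝 ((0 : ℝ), x)) (𝓝 (z + n)) :=
    (tendsto_Ev z x).add_const n
  have hpos : ∀ᶠ a : ℝ × ℂ in 𝓝 ((0 : ℝ), x), 0 < 2 * dt360 a.2 n + a.1 * ‖a.2‖ ^ 2 := by
    have hc : Continuous fun a : ℝ × ℂ => 2 * dt360 a.2 n + a.1 * ‖a.2‖ ^ 2 := by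
      have := (continuous_dt n).comp (continuous_snd (X := ℝ) (Y := ℂ))
      fun_prop
    refine continuousAt_const.eventually_lt hc.continuousAt ?_
    simp only [zero_mul, add_zero]
    linarith
  unfold Ev
  filter_upwards [hv.eventually ho, hv.eventually (h.nhd (z + n)), hpos] with a h1 h2 h3 h0 hb
  have h4 : 1 < dist (z + a.1 * a.2 + n) z := by
    rw [dist_eq_norm]
    have e : z + a.1 * a.2 + n - z = (a.1 : ℂ) * a.2 + n := by ring
    rw [e]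
    have h5 := normSq_tx a.1 a.2 n hn
    have h6 : 1 < ‖(a.1 : ℂ) * a.2 + n‖ ^ 2 := by
      rw [h5]; nlinarith [mul_pos h0 h3]
    nlinarith [norm_nonneg ((a.1 : ℂ) * a.2 + n)]
  have h5 : T (z + a.1 * a.2 + n) ⊆ {b} := by
    intro m hm
    rcases hT (h2 hm) with h6 | h6
    · exact absurd (h6 ▸ hm) (h1 h4)
    · exact h6
  refine h.mx.notMem' (h.mem_of_single h5) ?_ (h.sub _ hb)
  rw [dist_eq_norm]
  have e : z + a.1 * a.2 + n - (z + a.1 * a.2) = n := by ring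
  rw [e, hn]

/-- the other colour of an exact pair is absent in the half plane inside -/
theorem ev_inn (h : Irr U T) {z n x : ℂ} {c b : Fin k} (hn : ‖n‖ = 1) (ho : Inn T z n c)
    (hT : T (z + n) ⊆ {c, b}) (hs : dt360 x n < 0) : Ev z x fun w => b ∉ T w := by
  have hv : Tendsto (fun a : ℝ × ℂ => z + a.1 * a.2 + n) (𝓝 ((0 : ℝ), x)) (𝓝 (z + n)) :=
    (tendsto_Ev z x).add_const n
  have hpos : ∀ᶠ a : ℝ × ℂ in 𝓝 ((0 : ℝ), x), 2 * dt360 a.2 n + a.1 * ‖a.2‖ ^ 2 < 0 := by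
    have hc : Continuous fun a : ℝ × ℂ => 2 * dt360 a.2 n + a.1 * ‖a.2‖ ^ 2 := by
      have := (continuous_dt n).comp (continuous_snd (X := ℝ) (Y := ℂ))
      fun_prop
    refine hc.continuousAt.eventually_lt continuousAt_const ?_
    simp only [zero_mul, add_zero]
    linarith
  unfold Ev
  filter_upwards [hv.eventually ho, hv.eventually (h.nhd (z + n)), hpos] with a h1 h2 h3 h0 hb
  have h4 : dist (z + a.1 * a.2 + n) z < 1 := by
    rw [dist_eq_norm]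
    have e : z + a.1 * a.2 + n - z = (a.1 : ℂ) * a.2 + n := by ring
    rw [e]
    have h5 := normSq_tx a.1 a.2 n hn
    have h6 : ‖(a.1 : ℂ) * a.2 + n‖ ^ 2 < 1 := by
      rw [h5]; nlinarith [mul_pos h0 (neg_pos.2 h3)]
    nlinarith [norm_nonneg ((a.1 : ℂ) * a.2 + n)]
  have h5 : T (z + a.1 * a.2 + n) ⊆ {b} := by
    intro m hm
    rcases hT (h2 hm) with h6 | h6
    · exact absurd (h6 ▸ hm) (h1 h4)
    · exact h6
  refine h.mx.notMem' (h.mem_of_single h5) ?_ (h.sub _ hb)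
  rw [dist_eq_norm]
  have e : z + a.1 * a.2 + n - (z + a.1 * a.2) = n := by ring
  rw [e, hn]

end R765

end Vale.Agent.P032.Six
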